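import Vale.Agent.P087.Final

/-!
# P087, Q1: disproof

For all large `n` there is a self-adjoint `n`-tuple `X` in a tracial von Neumann algebra with
`-∞ < χ(X) < χ*(X)`.
-/

open Vale.Agent.P087

/-- For every large `n` there are a tracial von Neumann algebra `(M, τ)` (`τ` is the vector state
of `Ω`) and a self-adjoint `n`-tuple `X` in `M` with `-∞ < χ(X) < χ*(X)`, whatever free
semicircular family `S`, free from `X`, is used to compute `χ*(X)` (and there is one in `M`). -/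
theorem Vale.Agent.Results.P087.ChiLtChiStar.result :
    ∃ N : ℕ, ∀ n ≥ N, ∃ (H : Type) (_ : NormedAddCommGroup H) (_ : InnerProductSpace ℂ H)
      (_ : CompleteSpace H) (𝓜 : TracialVN H) (X : Fin n → H →L[ℂ] H),
      (∀ j, X j ∈ 𝓜.M ∧ IsSelfAdjoint (X j)) ∧
      (∃ S : Fin n → H →L[ℂ] H, (∀ j, S j ∈ 𝓜.M) ∧ FreeSemicirc 𝓜.Ω X S) ∧
      ⊥ < chi 𝓜.Ω X ∧
      ∀ S : Fin n → H →L[ℂ] H, FreeSemicirc 𝓜.Ω X S → chi 𝓜.Ω X < chiStar 𝓜.Ω X S :=
  chi_lt_chiStar_all
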